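import Vale.Agent.P088.MathlibUsed
import Mathlib.Analysis.InnerProductSpace.PiL2
import Mathlib.Analysis.Calculus.LineDeriv.IntegrationByParts
import Mathlib.MeasureTheory.Function.LpSeminorm.Basic
import Mathlib.MeasureTheory.Measure.Haar.InnerProductSpace

/-!
# P088, Dirichlet problem: the class of systems on a half cube
-/

open MeasureTheory Set
open scoped ContDiff ENNReal NNReal

noncomputable section

namespace Vale.Agent.P088.DC

/-- The space `ℝ^n`. -/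
abbrev En (n : ℕ) := EuclideanSpace ℝ (Fin n)

variable {n : ℕ}

/-- Standard vector. -/
abbrev ee (i : Fin n) : En n := EuclideanSpace.single i (1 : ℝ)

/-- Partial derivative. -/
def dd (i : Fin n) (v : En n → ℝ) : En n → ℝ := fun y => fderiv ℝ v y (ee i)

/-- The open half cube. -/
def Uh [NeZero n] (r : ℝ) : Set (En n) := {y | 0 < y 0 ∧ ∀ i, |y i| < r}

/-- The half cube with its face. -/
def Hb [NeZero n] (r : ℝ) : Set (En n) := {y | 0 ≤ y 0 ∧ ∀ i, |y i| < r}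

/-- Smooth up to the face. -/
def Cf [NeZero n] (r : ℝ) (f : En n → ℝ) : Prop :=
  ∃ g : En n → ℝ, ContDiffOn ℝ ∞ g (Hb r) ∧ EqOn f g (Uh r)

/-- The scalar principal part. -/
structure Ell [NeZero n] (r : ℝ) (a : Fin n → Fin n → En n → ℝ) : Prop where
  cf : ∀ i j, Cf r (a i j)
  pos : ∃ l > 0, ∀ y ∈ Uh r, ∀ ξ : Fin n → ℝ,
    l * ∑ i, ξ i ^ 2 ≤ ∑ i, ∑ j, a i j y * ξ i * ξ j

/-- The class of systems. -/
structure Cl [NeZero n] {ι : Type} [Fintype ι] (r : ℝ) (a : Fin n → Fin n → En n → ℝ)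
    (W : ι → En n → ℝ) : Prop where
  sm : ∀ α, ContDiffOn ℝ ∞ (W α) (Uh r)
  l2 : ∀ α, MemLp (W α) 2 (volume.restrict (Uh r))
  d2 : ∀ i α, MemLp (dd i (W α)) 2 (volume.restrict (Uh r))
  tr : ∃ C : ℝ≥0, ∀ α, ∀ ε > 0,
    ∫⁻ y in Uh r ∩ {y | y 0 < ε}, ENNReal.ofReal (W α y ^ 2) ≤ C * ENNReal.ofReal (ε ^ 2)
  eqn : ∃ (B : ι → ι → Fin n → En n → ℝ) (C : ι → ι → En n → ℝ) (F : ι → En n → ℝ),
    (∀ α β i, Cf r (B α β i)) ∧ (∀ α β, Cf r (C α β)) ∧ (∀ α, Cf r (F α)) ∧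
    ∀ α, ∀ y ∈ Uh r, ∑ i, ∑ j, a i j y * dd i (dd j (W α)) y =
      ∑ i, ∑ β, B α β i y * dd i (W β) y + ∑ β, C α β y * W β y + F α y

end Vale.Agent.P088.DC
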