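import Vale.Agent.P088.MathlibUsed

/-!
# P088, Dirichlet problem: the pointwise inequality behind the Caccioppoli estimate
-/

open Finset

namespace Vale.Agent.P088.DC

theorem pt2 (ι : Type) [Fintype ι] (n : ℕ) {L δ : ℝ} (hδ0 : 0 < δ) (p y : Fin n → ι → ℝ) {SQ : ℝ}
    (h2 : ∀ i α, y i α ^ 2 ≤ L * SQ) :
    -(δ * ∑ α, ∑ i, p i α ^ 2 + n * (Fintype.card ι : ℝ) * (L * SQ / (4 * δ))) ≤
      ∑ α, ∑ i, y i α * p i α := by
  have : ∀ α ∈ (univ : Finset ι), ∑ i, -(δ * p i α ^ 2 + L * SQ / (4 * δ)) ≤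
      ∑ i, y i α * p i α := by
    intro α _
    refine sum_le_sum fun i _ => ?_
    have hy := h2 i α
    have e1 : y i α ^ 2 / (4 * δ) ≤ L * SQ / (4 * δ) := by gcongr
    have e2 : 0 ≤ (y i α + 2 * δ * p i α) ^ 2 / (4 * δ) := by positivity
    have e3 : (y i α + 2 * δ * p i α) ^ 2 / (4 * δ) =
        y i α ^ 2 / (4 * δ) + y i α * p i α + δ * p i α ^ 2 := by
      field_simp; ring
    linarith
  refine le_trans (le_of_eq ?_) (sum_le_sum this)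
  simp only [sum_neg_distrib, sum_add_distrib, sum_const, card_univ, nsmul_eq_mul, mul_sum,
    Fintype.card_fin]
  ring

theorem pt3 (ι : Type) [Fintype ι] (n : ℕ) {G δ φ : ℝ} (hδ0 : 0 < δ) (x : Fin n → ι → ℝ)
    (d : Fin n → ℝ) (w : ι → ℝ) (h3 : ∀ i α, x i α ^ 2 ≤ G) :
    -(n * (Fintype.card ι : ℝ) * (δ * φ ^ 2 * G) + (∑ i, d i ^ 2) * (∑ α, w α ^ 2) / δ) ≤
      ∑ α, ∑ i, x i α * (2 * φ * d i * w α) := by
  have : ∀ α ∈ (univ : Finset ι),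
      ∑ i, -(δ * φ ^ 2 * G + d i ^ 2 * w α ^ 2 / δ) ≤
        ∑ i, x i α * (2 * φ * d i * w α) := by
    intro α _
    refine sum_le_sum fun i _ => ?_
    have hx := h3 i α
    have e1 : δ * φ ^ 2 * x i α ^ 2 ≤ δ * φ ^ 2 * G := by gcongr
    have e2 : 0 ≤ (δ * φ * x i α + d i * w α) ^ 2 / δ := by positivity
    have e3 : (δ * φ * x i α + d i * w α) ^ 2 / δ =
        δ * φ ^ 2 * x i α ^ 2 + x i α * (2 * φ * d i * w α) + d i ^ 2 * w α ^ 2 / δ := by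
      field_simp; ring
    linarith
  refine le_trans (le_of_eq ?_) (sum_le_sum this)
  simp only [sum_neg_distrib, sum_add_distrib, sum_const, card_univ, nsmul_eq_mul,
    Fintype.card_fin]
  have e4 : ∑ α, ∑ i, d i ^ 2 * w α ^ 2 / δ = (∑ i, d i ^ 2) * (∑ α, w α ^ 2) / δ := by
    rw [sum_mul_sum, sum_comm, sum_div]
    exact sum_congr rfl fun i _ => by rw [sum_div]
  rw [e4]
  ring

theorem pt4 (ι : Type) [Fintype ι] {G δ φ : ℝ} (hδ0 : 0 < δ) (r w : ι → ℝ)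
    (h4 : ∀ α, r α ^ 2 ≤ G) :
    -((Fintype.card ι : ℝ) * (δ * φ ^ 2 * G) + φ ^ 2 * (∑ α, w α ^ 2) / (4 * δ)) ≤
      ∑ α, r α * (φ ^ 2 * w α) := by
  have : ∀ α ∈ (univ : Finset ι), -(δ * φ ^ 2 * G + φ ^ 2 * w α ^ 2 / (4 * δ)) ≤
      r α * (φ ^ 2 * w α) := by
    intro α _
    have hr := h4 α
    have e1 : δ * φ ^ 2 * r α ^ 2 ≤ δ * φ ^ 2 * G := by gcongr
    have e2 : 0 ≤ (2 * δ * φ * r α + φ * w α) ^ 2 / (4 * δ) := by positivity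
    have e3 : (2 * δ * φ * r α + φ * w α) ^ 2 / (4 * δ) =
        δ * φ ^ 2 * r α ^ 2 + r α * (φ ^ 2 * w α) + φ ^ 2 * w α ^ 2 / (4 * δ) := by
      field_simp; ring
    linarith
  refine le_trans (le_of_eq ?_) (sum_le_sum this)
  simp only [sum_neg_distrib, sum_add_distrib, sum_const, card_univ, nsmul_eq_mul, mul_sum,
    sum_div]

/-- The pointwise inequality of the Caccioppoli estimate. -/
theorem point (ι : Type) [Fintype ι] (n : ℕ) {lam : ℝ} (hl : 0 < lam) {L : ℝ} (hL : 0 ≤ L) :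
    ∃ K : ℝ, 0 ≤ K ∧ ∀ (φ : ℝ) (d : Fin n → ℝ) (p y x : Fin n → ι → ℝ) (w r : ι → ℝ) (SQ ST : ℝ),
      0 ≤ SQ → 0 ≤ ST →
      (∀ α, lam * ∑ i, p i α ^ 2 ≤ ∑ i, (x i α - y i α) * p i α) →
      (∀ i α, y i α ^ 2 ≤ L * SQ) →
      (∀ i α, x i α ^ 2 ≤ L * (∑ α, ∑ i, p i α ^ 2 + SQ)) →
      (∀ α, r α ^ 2 ≤ L * (1 + ∑ α, ∑ i, p i α ^ 2 + SQ + ∑ α, w α ^ 2 + ST)) →
      lam / 2 * (φ ^ 2 * ∑ α, ∑ i, p i α ^ 2) ≤
        ∑ α, (∑ i, x i α * (φ ^ 2 * p i α + 2 * φ * d i * w α) + r α * (φ ^ 2 * w α)) +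
        K * ((φ ^ 2 + ∑ i, d i ^ 2) * ∑ α, w α ^ 2 + φ ^ 2 * (SQ + ST + 1)) := by
  classical
  obtain ⟨m, hm, hm0⟩ : ∃ m : ℝ, m = (Fintype.card ι : ℝ) ∧ 0 ≤ m := ⟨_, rfl, by positivity⟩
  obtain ⟨N, hN, hN0⟩ : ∃ N : ℝ, N = (n : ℝ) * m + m + 1 ∧ 0 < N := ⟨_, rfl, by positivity⟩
  have hNL : 0 < N * L + 1 := by positivity
  obtain ⟨δ, hδ, hδ0⟩ : ∃ δ : ℝ, δ = lam / 6 ∧ 0 < δ := ⟨_, rfl, by positivity⟩
  obtain ⟨δ', hδ', hδ'0⟩ : ∃ δ' : ℝ, δ' = lam / (6 * (N * L + 1)) ∧ 0 < δ' :=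
    ⟨_, rfl, by positivity⟩
  have hδN : δ' * (N * L) ≤ lam / 6 := by
    rw [hδ', div_mul_eq_mul_div, div_le_div_iff₀ (by positivity) (by norm_num)]
    nlinarith
  have hnm : (n : ℝ) * m ≤ N := by rw [hN]; linarith
  have hmN : m ≤ N := by rw [hN]; nlinarith [mul_nonneg (Nat.cast_nonneg (α := ℝ) n) hm0]
  refine ⟨N * L / (4 * δ) + N * L * δ' + 1 / δ' + N * L * δ' + 1 / (4 * δ'), by positivity, ?_⟩
  intro φ d p y x w r SQ ST hSQ hST h1 h2 h3 h4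
  have t1 : lam * ∑ α, ∑ i, p i α ^ 2 ≤ ∑ α, ∑ i, (x i α - y i α) * p i α := by
    rw [mul_sum]
    exact sum_le_sum fun α _ => h1 α
  have t2 := pt2 ι n hδ0 p y h2
  have t3 := pt3 ι n (φ := φ) hδ'0 x d w h3
  have t4 := pt4 ι (φ := φ) hδ'0 r w h4
  rw [← hm] at t2 t3 t4
  have e : ∑ α, (∑ i, x i α * (φ ^ 2 * p i α + 2 * φ * d i * w α) + r α * (φ ^ 2 * w α)) =
      φ ^ 2 * ∑ α, ∑ i, (x i α - y i α) * p i α + φ ^ 2 * ∑ α, ∑ i, y i α * p i α +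
      ∑ α, ∑ i, x i α * (2 * φ * d i * w α) + ∑ α, r α * (φ ^ 2 * w α) := by
    rw [sum_add_distrib]
    congr 1
    rw [← mul_add, ← sum_add_distrib, mul_sum, ← sum_add_distrib]
    refine sum_congr rfl fun α _ => ?_
    rw [← sum_add_distrib, mul_sum, ← sum_add_distrib]
    exact sum_congr rfl fun i _ => by ring
  rw [e]
  have hSP0 : 0 ≤ ∑ α, ∑ i, p i α ^ 2 := sum_nonneg fun _ _ => sum_nonneg fun _ _ => sq_nonneg _
  have hSW0 : 0 ≤ ∑ α, w α ^ 2 := sum_nonneg fun _ _ => sq_nonneg _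
  have hSD0 : 0 ≤ ∑ i, d i ^ 2 := sum_nonneg fun _ _ => sq_nonneg _
  generalize (∑ α, ∑ i, p i α ^ 2) = SP at *
  generalize (∑ α, w α ^ 2) = SW at *
  generalize (∑ i, d i ^ 2) = SD at *
  generalize (∑ α, ∑ i, (x i α - y i α) * p i α) = S1 at *
  generalize (∑ α, ∑ i, y i α * p i α) = S2 at *
  generalize (∑ α, ∑ i, x i α * (2 * φ * d i * w α)) = S3 at *
  generalize (∑ α, r α * (φ ^ 2 * w α)) = S4 at *
  have hφ : 0 ≤ φ ^ 2 := sq_nonneg _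
  have a1 : lam * (φ ^ 2 * SP) ≤ φ ^ 2 * S1 := by
    have := mul_le_mul_of_nonneg_left t1 hφ; linarith
  have u2 : (n : ℝ) * m * (L * SQ / (4 * δ)) ≤ N * (L * SQ / (4 * δ)) := by gcongr
  have a2 : -(δ * (φ ^ 2 * SP) + N * (L * SQ / (4 * δ)) * φ ^ 2) ≤ φ ^ 2 * S2 := by
    have := mul_le_mul_of_nonneg_left t2 hφ
    have u3 := mul_le_mul_of_nonneg_left u2 hφ
    linarith
  have u4 : (n : ℝ) * m * (δ' * φ ^ 2 * (L * (SP + SQ))) ≤ N * (δ' * φ ^ 2 * (L * (SP + SQ))) := by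
    gcongr
  have u5 : m * (δ' * φ ^ 2 * (L * (1 + SP + SQ + SW + ST))) ≤
      N * (δ' * φ ^ 2 * (L * (1 + SP + SQ + SW + ST))) := by gcongr
  have b1 : δ' * (N * L) * (φ ^ 2 * SP) ≤ lam / 6 * (φ ^ 2 * SP) := by gcongr
  obtain ⟨X, hX⟩ : ∃ X, X = (φ ^ 2 + SD) * SW + φ ^ 2 * (SQ + ST + 1) := ⟨_, rfl⟩
  have g0 : 0 ≤ φ ^ 2 * SQ := by positivity
  have g1 : 0 ≤ φ ^ 2 * ST := by positivity
  have g2 : 0 ≤ φ ^ 2 * SW := by positivity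
  have g3 : 0 ≤ SD * SW := by positivity
  have x1 : φ ^ 2 * SQ ≤ X := by rw [hX]; linarith
  have x2 : SD * SW ≤ X := by rw [hX]; linarith
  have x3 : φ ^ 2 * SW ≤ X := by rw [hX]; linarith
  have x4 : φ ^ 2 * (1 + SQ + SW + ST) ≤ X := by rw [hX]; linarith
  have y1 := mul_le_mul_of_nonneg_left x1 (show 0 ≤ N * L / (4 * δ) by positivity)
  have y2 := mul_le_mul_of_nonneg_left x1 (show 0 ≤ N * L * δ' by positivity)
  have y3 := mul_le_mul_of_nonneg_left x2 (show 0 ≤ 1 / δ' by positivity)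
  have y4 := mul_le_mul_of_nonneg_left x3 (show 0 ≤ 1 / (4 * δ') by positivity)
  have y5 := mul_le_mul_of_nonneg_left x4 (show 0 ≤ N * L * δ' by positivity)
  rw [← hX]
  have q1 : N * (L * SQ / (4 * δ)) * φ ^ 2 = N * L / (4 * δ) * (φ ^ 2 * SQ) := by ring
  have q2 : SD * SW / δ' = 1 / δ' * (SD * SW) := by ring
  have q3 : φ ^ 2 * SW / (4 * δ') = 1 / (4 * δ') * (φ ^ 2 * SW) := by ring
  rw [q1] at a2
  rw [q2] at t3
  rw [q3] at t4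
  have q4 : N * (δ' * φ ^ 2 * (L * (SP + SQ))) =
    δ' * (N * L) * (φ ^ 2 * SP) + N * L * δ' * (φ ^ 2 * SQ) := by ring
  have q5 : N * (δ' * φ ^ 2 * (L * (1 + SP + SQ + SW + ST))) =
    δ' * (N * L) * (φ ^ 2 * SP) + N * L * δ' * (φ ^ 2 * (1 + SQ + SW + ST)) := by ring
  rw [q4] at u4
  rw [q5] at u5
  rw [hδ] at a2
  have q6 : (N * L / (4 * δ) + N * L * δ' + 1 / δ' + N * L * δ' + 1 / (4 * δ')) * X =
    N * L / (4 * δ) * X + N * L * δ' * X + 1 / δ' * X + N * L * δ' * X + 1 / (4 * δ') * X := by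
    ring
  rw [q6]
  rw [hδ] at y1 ⊢
  linarith

end Vale.Agent.P088.DC
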