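import Vale.Agent.P088.R2.H380.DM.Ibp
import Vale.Agent.P088.R2.H380.DM.Pt

/-!
# P088, Dirichlet problem: the Caccioppoli estimate with a cut-off function
-/

open MeasureTheory Set
open scoped ContDiff ENNReal NNReal

noncomputable section

namespace Vale.Agent.P088.DC

variable {n : ℕ}

theorem dd_eq_zero {O : Set (En n)} {φ : En n → ℝ} (h : Cut O φ) (i : Fin n) {y : En n}
    (hy : y ∉ O) : dd i φ y = 0 := by
  have : y ∉ tsupport φ := fun h' => hy (h.ts h')
  have h1 := (notMem_tsupport_iff_eventuallyEq.1 this)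
  have h2 : fderiv ℝ φ y = fderiv ℝ (fun _ => (0 : ℝ)) y := by
    refine Filter.EventuallyEq.fderiv_eq ?_
    filter_upwards [h1] with z hz
    simpa using hz
  simp [dd, h2]

/-- `(∂_i φ)^2 f` is integrable for `f` continuous on `O`. -/
theorem Cut.int' {O : Set (En n)} (hO : IsOpen O) {φ : En n → ℝ} (h : Cut O φ) {f : En n → ℝ}
    (hf : ContinuousOn f O) (i : Fin n) : Integrable (fun y => dd i φ y ^ 2 * f y) := by
  have hs : tsupport (fun y => dd i φ y ^ 2 * f y) ⊆ tsupport φ := by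
    refine tsupport_mul_subset_left.trans ?_
    have h1 : tsupport (fderiv ℝ φ) ⊆ tsupport φ := tsupport_fderiv_subset ℝ
    refine (closure_mono fun y hy => ?_).trans h1
    intro h0
    apply hy
    simp [dd, h0]
  have hc : Continuous (fun y => dd i φ y ^ 2 * f y) :=
    ContinuousOn.continuous_of_tsupport_subset
      ((((dd_cont isOpen_univ h.sm.contDiffOn i).mono (subset_univ _)).pow 2).mul hf) hO
      (hs.trans h.ts)
  exact hc.integrable_of_hasCompactSupport (h.cs.isCompact.of_isClosed_subset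
    (isClosed_tsupport _) hs)

/-- The Caccioppoli estimate. -/
theorem energy (ι : Type) [Fintype ι] (n : ℕ) {lam : ℝ} (hl : 0 < lam) {L : ℝ} (hL : 0 ≤ L) :
    ∃ K : ℝ, 0 ≤ K ∧ ∀ (O : Set (En n)) (_ : IsOpen O) (φ : En n → ℝ) (_ : Cut O φ)
      (w : ι → En n → ℝ) (X Y : Fin n → ι → En n → ℝ) (r : ι → En n → ℝ) (SQ ST : En n → ℝ),
      (∀ α, ContDiffOn ℝ 1 (w α) O) → (∀ i α, ContDiffOn ℝ 1 (X i α) O) →
      ContinuousOn SQ O → ContinuousOn ST O →
      (∀ α, ∀ y ∈ O, ∑ i, dd i (X i α) y = r α y) →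
      (∀ y ∈ O, 0 ≤ SQ y) → (∀ y ∈ O, 0 ≤ ST y) →
      (∀ y ∈ O, ∀ α, lam * ∑ i, dd i (w α) y ^ 2 ≤
        ∑ i, (X i α y - Y i α y) * dd i (w α) y) →
      (∀ y ∈ O, ∀ i α, Y i α y ^ 2 ≤ L * SQ y) →
      (∀ y ∈ O, ∀ i α, X i α y ^ 2 ≤ L * (∑ α, ∑ i, dd i (w α) y ^ 2 + SQ y)) →
      (∀ y ∈ O, ∀ α, r α y ^ 2 ≤
        L * (1 + ∑ α, ∑ i, dd i (w α) y ^ 2 + SQ y + ∑ α, w α y ^ 2 + ST y)) →
      ∫⁻ y, ENNReal.ofReal (φ y ^ 2 * ∑ α, ∑ i, dd i (w α) y ^ 2) ≤
        ENNReal.ofReal K * ∫⁻ y, ENNReal.ofReal ((φ y ^ 2 + ∑ i, dd i φ y ^ 2) * ∑ α, w α y ^ 2 +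
          φ y ^ 2 * (SQ y + ST y + 1)) := by
  obtain ⟨K, hK0, hK⟩ := point ι n hl hL
  refine ⟨2 / lam * K, by positivity, ?_⟩
  intro O hO φ hφ w X Y r SQ ST hw hX hSQ hST hdiv hSQ0 hST0 h1 h2 h3 h4
  -- integrability
  have cw : ∀ α, ContinuousOn (w α) O := fun α => (hw α).continuousOn
  have cX : ∀ i α, ContinuousOn (X i α) O := fun i α => (hX i α).continuousOn
  have cdw : ∀ i α, ContinuousOn (dd i (w α)) O := fun i α => dd_cont hO (hw α) i
  have cdX : ∀ j i α, ContinuousOn (dd j (X i α)) O := fun j i α => dd_cont hO (hX i α) j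
  have cφ : ContinuousOn φ O := hφ.sm.continuous.continuousOn
  have cdφ : ∀ i, ContinuousOn (dd i φ) O := fun i =>
    (dd_cont isOpen_univ hφ.sm.contDiffOn i).mono (subset_univ _)
  have cr : ∀ α, ContinuousOn (r α) O := fun α =>
    (continuousOn_finsetSum _ fun i _ => cdX i i α).congr fun y hy => (hdiv α y hy).symm
  have cSP : ContinuousOn (fun y => ∑ α, ∑ i, dd i (w α) y ^ 2) O :=
    continuousOn_finsetSum _ fun α _ => continuousOn_finsetSum _ fun i _ => (cdw i α).pow 2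
  have cSW : ContinuousOn (fun y => ∑ α, w α y ^ 2) O :=
    continuousOn_finsetSum _ fun α _ => (cw α).pow 2
  have i1 : Integrable (fun y => φ y ^ 2 * ∑ α, ∑ i, dd i (w α) y ^ 2) := by
    refine (hφ.int hO (f := fun y => φ y * ∑ α, ∑ i, dd i (w α) y ^ 2) (cφ.mul cSP)).congr
      (Filter.Eventually.of_forall fun y => ?_)
    simp only
    ring
  have iX : ∀ α i, Integrable (fun y => X i α y * (φ y ^ 2 * dd i (w α) y +
      2 * φ y * dd i φ y * w α y)) := by
    intro α i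
    refine (hφ.int hO (f := fun y => X i α y * (φ y * dd i (w α) y + 2 * dd i φ y * w α y))
      ((cX i α).mul ((cφ.mul (cdw i α)).add ((continuousOn_const.mul (cdφ i)).mul (cw α))))).congr
      (Filter.Eventually.of_forall fun y => ?_)
    simp only
    ring
  have idX : ∀ α i, Integrable (fun y => dd i (X i α) y * (φ y ^ 2 * w α y)) := by
    intro α i
    refine (hφ.int hO (f := fun y => dd i (X i α) y * (φ y * w α y))
      ((cdX i i α).mul (cφ.mul (cw α)))).congr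
      (Filter.Eventually.of_forall fun y => ?_)
    simp only
    ring
  have ir : ∀ α, Integrable (fun y => r α y * (φ y ^ 2 * w α y)) := by
    intro α
    refine (hφ.int hO (f := fun y => r α y * (φ y * w α y))
      ((cr α).mul (cφ.mul (cw α)))).congr (Filter.Eventually.of_forall fun y => ?_)
    simp only
    ring
  have iSX : ∀ α, Integrable (fun y => ∑ i, X i α y * (φ y ^ 2 * dd i (w α) y +
      2 * φ y * dd i φ y * w α y)) := fun α => integrable_finsetSum _ fun i _ => iX α i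
  have iS : ∀ α, Integrable (fun y => ∑ i, X i α y * (φ y ^ 2 * dd i (w α) y +
      2 * φ y * dd i φ y * w α y) + r α y * (φ y ^ 2 * w α y)) := fun α => (iSX α).add (ir α)
  have i2 : Integrable (fun y => ∑ α, (∑ i, X i α y * (φ y ^ 2 * dd i (w α) y +
      2 * φ y * dd i φ y * w α y) + r α y * (φ y ^ 2 * w α y))) :=
    integrable_finsetSum _ fun α _ => iS α
  have i3 : Integrable (fun y => (φ y ^ 2 + ∑ i, dd i φ y ^ 2) * ∑ α, w α y ^ 2 +
      φ y ^ 2 * (SQ y + ST y + 1)) := by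
    have j1 : Integrable (fun y => φ y ^ 2 * ((∑ α, w α y ^ 2) + (SQ y + ST y + 1))) := by
      refine (hφ.int hO (f := fun y => φ y * ((∑ α, w α y ^ 2) + (SQ y + ST y + 1)))
        (cφ.mul (cSW.add ((hSQ.add hST).add continuousOn_const)))).congr
        (Filter.Eventually.of_forall fun y => ?_)
      simp only
      ring
    have j2 : Integrable (fun y => ∑ i, dd i φ y ^ 2 * ∑ α, w α y ^ 2) :=
      integrable_finsetSum _ fun i _ => hφ.int' hO cSW i
    refine (j1.add j2).congr (Filter.Eventually.of_forall fun y => ?_)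
    simp only [Pi.add_apply, ← Finset.sum_mul]
    ring
  -- the identity
  have hz : ∫ y, ∑ α, (∑ i, X i α y * (φ y ^ 2 * dd i (w α) y +
      2 * φ y * dd i φ y * w α y) + r α y * (φ y ^ 2 * w α y)) = 0 := by
    rw [integral_finsetSum _ fun α _ => iS α]
    refine Finset.sum_eq_zero fun α _ => ?_
    rw [integral_add (iSX α) (ir α), integral_finsetSum _ fun i _ => iX α i]
    have e1 : ∀ y, r α y * (φ y ^ 2 * w α y) = ∑ i, dd i (X i α) y * (φ y ^ 2 * w α y) := by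
      intro y
      by_cases hy : y ∈ O
      · rw [← Finset.sum_mul, hdiv α y hy]
      · simp [hφ.zero hy]
    rw [integral_congr_ae (Filter.Eventually.of_forall e1),
      integral_finsetSum _ fun i _ => idX α i, ← Finset.sum_add_distrib]
    refine Finset.sum_eq_zero fun i _ => ?_
    rw [hφ.ibp hO (hX i α) (hw α) i]
    ring
  have hpt : ∀ y, lam / 2 * (φ y ^ 2 * ∑ α, ∑ i, dd i (w α) y ^ 2) ≤
      ∑ α, (∑ i, X i α y * (φ y ^ 2 * dd i (w α) y +
      2 * φ y * dd i φ y * w α y) + r α y * (φ y ^ 2 * w α y)) +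
      K * ((φ y ^ 2 + ∑ i, dd i φ y ^ 2) * ∑ α, w α y ^ 2 +
        φ y ^ 2 * (SQ y + ST y + 1)) := by
    intro y
    by_cases hy : y ∈ O
    · exact hK (φ y) (fun i => dd i φ y) (fun i α => dd i (w α) y) (fun i α => Y i α y)
        (fun i α => X i α y) (fun α => w α y) (fun α => r α y) (SQ y) (ST y) (hSQ0 y hy)
        (hST0 y hy) (h1 y hy) (h2 y hy) (h3 y hy) (h4 y hy)
    · simp [hφ.zero hy, dd_eq_zero hφ _ hy]
  have hfin : ∫ y, lam / 2 * (φ y ^ 2 * ∑ α, ∑ i, dd i (w α) y ^ 2) ≤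
      ∫ y, K * ((φ y ^ 2 + ∑ i, dd i φ y ^ 2) * ∑ α, w α y ^ 2 +
        φ y ^ 2 * (SQ y + ST y + 1)) := by
   calc ∫ y, lam / 2 * (φ y ^ 2 * ∑ α, ∑ i, dd i (w α) y ^ 2)
      ≤ ∫ y, (∑ α, (∑ i, X i α y * (φ y ^ 2 * dd i (w α) y +
      2 * φ y * dd i φ y * w α y) + r α y * (φ y ^ 2 * w α y)) +
      K * ((φ y ^ 2 + ∑ i, dd i φ y ^ 2) * ∑ α, w α y ^ 2 +
        φ y ^ 2 * (SQ y + ST y + 1))) :=
        integral_mono (i1.const_mul _) (i2.add (i3.const_mul _)) hpt
    _ = _ := by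
        rw [integral_add i2 (i3.const_mul _), hz, zero_add]
  rw [integral_const_mul, integral_const_mul] at hfin
  have p1 : ∀ y, 0 ≤ φ y ^ 2 * ∑ α, ∑ i, dd i (w α) y ^ 2 := fun y => by positivity
  have p3 : ∀ y, 0 ≤ (φ y ^ 2 + ∑ i, dd i φ y ^ 2) * ∑ α, w α y ^ 2 +
      φ y ^ 2 * (SQ y + ST y + 1) := by
    intro y
    by_cases hy : y ∈ O
    · have := hSQ0 y hy
      have := hST0 y hy
      positivity
    · simp [hφ.zero hy, dd_eq_zero hφ _ hy]
  rw [← ofReal_integral_eq_lintegral_ofReal i1 (Filter.Eventually.of_forall p1),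
    ← ofReal_integral_eq_lintegral_ofReal i3 (Filter.Eventually.of_forall p3),
    ← ENNReal.ofReal_mul (by positivity)]
  refine ENNReal.ofReal_le_ofReal ?_
  have e1 : ∫ y, φ y ^ 2 * ∑ α, ∑ i, dd i (w α) y ^ 2 =
      2 / lam * (lam / 2 * ∫ y, φ y ^ 2 * ∑ α, ∑ i, dd i (w α) y ^ 2) := by
    field_simp
  rw [e1, mul_assoc]
  exact mul_le_mul_of_nonneg_left hfin (by positivity)

end Vale.Agent.P088.DC
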