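import Vale.Agent.P088.R2.H380.DM.Cac
import Vale.Agent.P088.R2.H856.DM.Row7

/-!
# P088, Dirichlet problem: the system for the difference quotients
-/

open MeasureTheory Set
open scoped ContDiff ENNReal NNReal

noncomputable section

namespace Vale.Agent.P088.DC

variable {n : ℕ}

/-- The difference quotient. -/
def DQ (t : Fin n) (h : ℝ) (f : En n → ℝ) : En n → ℝ := fun y => (f (y + h • ee t) - f y) / h

theorem DQ_smooth {k : WithTop ℕ∞} {t : Fin n} {h : ℝ} {f : En n → ℝ} {V O : Set (En n)}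
    (hf : ContDiffOn ℝ k f V) (hO : O ⊆ V) (hs : ∀ y ∈ O, y + h • ee t ∈ V) :
    ContDiffOn ℝ k (DQ t h f) O := by
  have h1 : ContDiffOn ℝ k (fun y => f (y + h • ee t)) O :=
    hf.comp (contDiffOn_id.add contDiffOn_const) hs
  exact (h1.sub (hf.mono hO)).div_const h

theorem dd_DQ {t i : Fin n} {h : ℝ} {f : En n → ℝ} {V : Set (En n)} (hV : IsOpen V)
    (hf : ContDiffOn ℝ 1 f V) {y : En n} (hy : y ∈ V) (hy' : y + h • ee t ∈ V) :
    dd i (DQ t h f) y = DQ t h (dd i f) y := by
  have d : ∀ z ∈ V, DifferentiableAt ℝ f z := fun z hz =>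
    (hf.differentiableOn one_ne_zero).differentiableAt (hV.mem_nhds hz)
  have h1 : HasFDerivAt (fun y => f (y + h • ee t)) (fderiv ℝ f (y + h • ee t)) y := by
    have := (d _ hy').hasFDerivAt
    exact (hasFDerivAt_comp_add_right _).2 this
  have h2 := ((h1.sub (d y hy).hasFDerivAt).mul_const h⁻¹)
  have h3 : DQ t h f = fun y => (f (y + h • ee t) - f y) * h⁻¹ := by
    funext y; rw [DQ, div_eq_mul_inv]
  have h4 : HasFDerivAt (DQ t h f) (h⁻¹ • (fderiv ℝ f (y + h • ee t) - fderiv ℝ f y)) y := by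
    rw [h3]; exact h2
  simp only [dd, h4.fderiv, DQ]
  simp only [smul_apply, sub_apply, smul_eq_mul]
  rw [div_eq_inv_mul]

theorem DQ_mul (t : Fin n) (h : ℝ) (f g : En n → ℝ) (y : En n) :
    DQ t h (fun y => f y * g y) y = DQ t h f y * g (y + h • ee t) + f y * DQ t h g y := by
  simp only [DQ]; ring

theorem DQ_add (t : Fin n) (h : ℝ) (f g : En n → ℝ) (y : En n) :
    DQ t h (fun y => f y + g y) y = DQ t h f y + DQ t h g y := by
  simp only [DQ]; ring

theorem DQ_sum {J : Type*} (s : Finset J) (t : Fin n) (h : ℝ) (f : J → En n → ℝ) (y : En n) :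
    DQ t h (fun y => ∑ j ∈ s, f j y) y = ∑ j ∈ s, DQ t h (f j) y := by
  simp only [DQ, ← Finset.sum_div, Finset.sum_sub_distrib]

theorem cf_add [NeZero n] {r : ℝ} {f g : En n → ℝ} (hf : Cf r f) (hg : Cf r g) :
    Cf r (fun y => f y + g y) := by
  obtain ⟨f', h1, h2⟩ := hf
  obtain ⟨g', h3, h4⟩ := hg
  exact ⟨fun y => f' y + g' y, h1.add h3, fun y hy => by simp only; rw [h2 hy, h4 hy]⟩

theorem cf_zero [NeZero n] {r : ℝ} : Cf (n := n) r (fun _ => 0) :=
  ⟨fun _ => 0, contDiffOn_const, fun _ _ => rfl⟩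

theorem cf_fsum [NeZero n] {r : ℝ} {J : Type*} (s : Finset J) {f : J → En n → ℝ}
    (hf : ∀ j, Cf r (f j)) : Cf r (fun y => ∑ j ∈ s, f j y) := by
  classical
  induction s using Finset.induction_on with
  | empty => simpa using cf_zero
  | insert j s hj ih =>
    have := cf_add (hf j) ih
    simpa [Finset.sum_insert hj] using this

/-- The functions occurring on the right hand side. -/
def uu {ι : Type} (W : ι → En n → ℝ) : (Fin n × ι) ⊕ ι → En n → ℝ :=
  Sum.elim (fun p => dd p.1 (W p.2)) W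

/-- The divergence form of the system. -/
theorem div_form [NeZero n] {ι : Type} [Fintype ι] {r : ℝ} {a : Fin n → Fin n → En n → ℝ}
    {W : ι → En n → ℝ} (ha : Ell r a) (hW : Cl r a W) :
    ∃ (c : ι → (Fin n × ι) ⊕ ι → En n → ℝ) (F : ι → En n → ℝ),
      (∀ α k, Cf r (c α k)) ∧ (∀ α, Cf r (F α)) ∧ ∀ α, ∀ y ∈ Uh r,
        ∑ i, dd i (fun y => ∑ j, a i j y * dd j (W α) y) y =
          ∑ k, c α k y * uu W k y + F α y := by
  classical
  obtain ⟨B, C, F, hB, hC, hF, he⟩ := hW.eqn
  refine ⟨fun α => Sum.elim (fun p y => B α p.2 p.1 y +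
    (if α = p.2 then ∑ j, dd j (a j p.1) y else 0)) (fun β => C α β), F, ?_, hF, ?_⟩
  · intro α k
    rcases k with ⟨i, β⟩ | β
    · refine cf_add (hB α β i) ?_
      by_cases h : α = β
      · simp only [h, if_true]
        exact cf_fsum _ fun j => Vale.Agent.P088.R2.H856.DM.Loc.cf_dd (ha.cf j i) j
      · simp only [h, if_false]
        exact cf_zero
    · exact hC α β
  · intro α y hy
    have hO := Vale.Agent.P088.R2.H856.DM.Loc.isOpen_U (n := n) r
    have da : ∀ i j, DifferentiableAt ℝ (a i j) y := fun i j =>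
      ((Vale.Agent.P088.R2.H856.DM.Loc.cf_smooth (ha.cf i j)).differentiableOn
        (by simp)).differentiableAt (hO.mem_nhds hy)
    have dw : ∀ j, DifferentiableAt ℝ (dd j (W α)) y := fun j => by
      have : ContDiffOn ℝ ∞ (dd j (W α)) (Uh r) :=
        ((hW.sm α).fderiv_of_isOpen hO (by simp)).clm_apply contDiffOn_const
      exact (this.differentiableOn (by simp)).differentiableAt (hO.mem_nhds hy)
    have h1 : ∀ i, dd i (fun y => ∑ j, a i j y * dd j (W α) y) y =
        ∑ j, (dd i (a i j) y * dd j (W α) y + a i j y * dd i (dd j (W α)) y) := by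
      intro i
      have h2 : HasFDerivAt (fun y => ∑ j, a i j y * dd j (W α) y)
          (∑ j, (a i j y • fderiv ℝ (dd j (W α)) y + dd j (W α) y • fderiv ℝ (a i j) y)) y :=
        HasFDerivAt.fun_sum fun j _ => (da i j).hasFDerivAt.mul (dw j).hasFDerivAt
      simp only [dd] at h2 ⊢
      rw [h2.fderiv]
      simp only [sum_apply, add_apply,
        smul_apply, smul_eq_mul]
      exact Finset.sum_congr rfl fun j _ => by ring
    simp only [h1, Finset.sum_add_distrib]
    rw [he α y hy, Fintype.sum_sum_type, Fintype.sum_prod_type]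
    simp only [Sum.elim_inl, Sum.elim_inr, uu, add_mul, Finset.sum_add_distrib, ite_mul, zero_mul,
      Finset.sum_ite_eq, Finset.mem_univ, if_true]
    have h3 : ∑ i, ∑ j, dd i (a i j) y * dd j (W α) y =
        ∑ i, (∑ j, dd j (a j i) y) * dd i (W α) y := by
      rw [Finset.sum_comm]
      exact Finset.sum_congr rfl fun i _ => by rw [Finset.sum_mul]
    rw [h3]
    ring

end Vale.Agent.P088.DC
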