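import Vale.Agent.P088.R2.H380.DM.DqS
import Vale.Agent.P088.R2.H850.DM.CutE
import Vale.Agent.P088.R2.H850.DM.N2
import Vale.Agent.P088.R2.H459.DM.Tr0

/-!
# P088, Dirichlet problem: uniform bound of the difference quotients of the gradient
-/

open MeasureTheory Set
open scoped ContDiff ENNReal NNReal

noncomputable section

namespace Vale.Agent.P088.DC

variable {n : ℕ}

/-- Translation of a lower integral. -/
theorem shift_le {A B : Set (En n)} (hA : MeasurableSet A) (hB : MeasurableSet B) {c : En n}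
    (h : ∀ y ∈ A, y + c ∈ B) (g : En n → ℝ≥0∞) :
    ∫⁻ y in A, g (y + c) ≤ ∫⁻ y in B, g y := by
  rw [← lintegral_indicator hA, ← lintegral_indicator hB,
    ← lintegral_add_right_eq_self (B.indicator g) c]
  refine lintegral_mono fun y => ?_
  by_cases hy : y ∈ A
  · rw [indicator_of_mem hy, indicator_of_mem (h y hy)]
  · rw [indicator_of_notMem hy]; exact zero_le

theorem lint_sq_ne_top {f : En n → ℝ} {μ : Measure (En n)} (h : MemLp f 2 μ) :
    ∫⁻ y, ENNReal.ofReal (f y ^ 2) ∂μ ≠ ⊤ := h.integrable_sq.lintegral_lt_top.ne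

/-- Lower integral of a finite sum. -/
theorem lint_sum {J : Type*} (s : Finset J) {O : Set (En n)} (hO : MeasurableSet O)
    {f : J → En n → ℝ} (hf : ∀ j, ContinuousOn (f j) O) (h0 : ∀ j, ∀ y ∈ O, 0 ≤ f j y) :
    ∫⁻ y in O, ENNReal.ofReal (∑ j ∈ s, f j y) = ∑ j ∈ s, ∫⁻ y in O, ENNReal.ofReal (f j y) := by
  rw [← lintegral_finsetSum' _ fun j _ => ((hf j).aemeasurable hO).ennreal_ofReal]
  refine setLIntegral_congr_fun hO fun y hy => ?_
  exact ENNReal.ofReal_sum_of_nonneg fun j _ => h0 j y hy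

/-- Crude bound of a difference quotient. -/
theorem DQ_crude {t : Fin n} {h : ℝ} (hh : h ≠ 0) {f : En n → ℝ} {A B : Set (En n)}
    (hA : MeasurableSet A) (hB : MeasurableSet B) (hAB : A ⊆ B) (h1 : ∀ y ∈ A, y + h • ee t ∈ B)
    (hf : ContinuousOn f B) :
    ∫⁻ y in A, ENNReal.ofReal (DQ t h f y ^ 2) ≤
      ENNReal.ofReal (4 / h ^ 2) * ∫⁻ y in B, ENNReal.ofReal (f y ^ 2) := by
  have hp : ∀ y, ENNReal.ofReal (DQ t h f y ^ 2) ≤ ENNReal.ofReal (2 / h ^ 2) *
      (ENNReal.ofReal (f (y + h • ee t) ^ 2) + ENNReal.ofReal (f y ^ 2)) := by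
    intro y
    rw [← ENNReal.ofReal_add (sq_nonneg _) (sq_nonneg _), ← ENNReal.ofReal_mul (by positivity)]
    refine ENNReal.ofReal_le_ofReal ?_
    rw [DQ, div_pow, div_mul_eq_mul_div]
    gcongr
    nlinarith [sq_nonneg (f (y + h • ee t) + f y)]
  calc ∫⁻ y in A, ENNReal.ofReal (DQ t h f y ^ 2)
      ≤ ∫⁻ y in A, ENNReal.ofReal (2 / h ^ 2) *
        (ENNReal.ofReal (f (y + h • ee t) ^ 2) + ENNReal.ofReal (f y ^ 2)) :=
        lintegral_mono fun y => hp y
    _ = ENNReal.ofReal (2 / h ^ 2) * ((∫⁻ y in A, ENNReal.ofReal (f (y + h • ee t) ^ 2)) +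
        (∫⁻ y in A, ENNReal.ofReal (f y ^ 2))) := by
        rw [lintegral_const_mul' _ _ ENNReal.ofReal_ne_top]
        congr 1
        exact lintegral_add_right' _ (((hf.mono hAB).pow 2).aemeasurable hA).ennreal_ofReal
    _ ≤ ENNReal.ofReal (2 / h ^ 2) * ((∫⁻ y in B, ENNReal.ofReal (f y ^ 2)) +
        (∫⁻ y in B, ENNReal.ofReal (f y ^ 2))) := by
        refine mul_le_mul_right (add_le_add ?_ (lintegral_mono_set hAB)) _
        exact shift_le hA hB h1 fun y => ENNReal.ofReal (f y ^ 2)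
    _ = _ := by
        rw [← two_mul, ← mul_assoc]
        congr 1
        rw [show (2 : ℝ≥0∞) = ENNReal.ofReal 2 by simp, ← ENNReal.ofReal_mul (by positivity)]
        congr 1
        ring

open Vale.Agent.P088.R2.H856.DM.Loc in
/-- A thin slab carries a small part of an integrable function. -/
theorem thin [NeZero n] {r : ℝ} (hr : 0 < r) {f : En n → ℝ≥0∞}
    (hf : ∫⁻ y in Uh r, f y ≠ ⊤) {b : ℝ} (hb : 0 < b) :
    ∃ ε, 0 < ε ∧ 2 * ε < b ∧ ∫⁻ y in Uh r ∩ {y | y 0 < 2 * ε}, f y ≤ 1 := by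
  obtain ⟨δ, hδ, hδ'⟩ := exists_pos_setLIntegral_lt_of_measure_lt hf one_ne_zero
  set P : ℝ := ∏ _i ∈ (Finset.univ : Finset (Fin n)).erase 0, (2 * r) with hP
  have hP0 : 0 < P := Finset.prod_pos fun _ _ => by positivity
  obtain ⟨d, hd0, hd⟩ : ∃ d : ℝ, 0 < d ∧ ENNReal.ofReal d < δ := by
    rcases eq_or_ne δ ⊤ with h | h
    · exact ⟨1, one_pos, by rw [h]; exact ENNReal.ofReal_lt_top⟩
    · have h2 : 0 < δ.toReal := ENNReal.toReal_pos hδ.ne' h
      refine ⟨δ.toReal / 2, by positivity, ?_⟩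
      rw [ENNReal.ofReal_lt_iff_lt_toReal (by positivity) h]
      linarith
  set ε := min (b / 4) (d / (2 * P)) with hε
  have hε0 : 0 < ε := lt_min (by positivity) (by positivity)
  refine ⟨ε, hε0, ?_, ?_⟩
  · have : ε ≤ b / 4 := min_le_left _ _
    linarith
  · have hm : (volume.restrict (Uh r)) {y : En n | y 0 < 2 * ε} < δ := by
      have hms : MeasurableSet {y : En n | y 0 < 2 * ε} :=
        (isOpen_lt (by fun_prop) continuous_const).measurableSet
      rw [Measure.restrict_apply hms]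
      refine lt_of_le_of_lt ?_ hd
      calc volume ({y : En n | y 0 < 2 * ε} ∩ Uh r)
          ≤ volume {z : En n | (0 < z 0 ∧ z 0 < 2 * ε) ∧ ∀ i ≠ 0, |z i - (0 : En n) i| < r} :=
            measure_mono fun z hz => ⟨⟨hz.2.1, hz.1⟩, fun i _ => by simpa using hz.2.2 i⟩
        _ = ENNReal.ofReal (2 * ε * P) :=
            Vale.Agent.P088.DM.vol_thin (0 : En n) (by positivity) hr
        _ ≤ ENNReal.ofReal d := by
            refine ENNReal.ofReal_le_ofReal ?_
            have : ε ≤ d / (2 * P) := min_le_right _ _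
            calc 2 * ε * P ≤ 2 * (d / (2 * P)) * P := by gcongr
              _ = d := by field_simp
    have h3 := (hδ' _ hm).le
    rwa [Measure.restrict_restrict (isOpen_lt (by fun_prop) continuous_const).measurableSet,
      inter_comm] at h3

theorem sh_mem [NeZero n] {r s h : ℝ} {t : Fin n} (ht : t ≠ 0) (hh : |h| ≤ s - r) {y : En n}
    (hy : y ∈ Uh r) : y + h • ee t ∈ Uh s := by
  have hs : r ≤ s := by linarith [abs_nonneg h]
  refine ⟨?_, fun i => ?_⟩
  · have : (y + h • ee t) 0 = y 0 := by simp [ht.symm]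
    rw [this]; exact hy.1
  · have h5 := hy.2 i
    by_cases hi : i = t
    · subst hi
      have : (y + h • ee i) i = y i + h := by simp
      rw [this]
      calc |y i + h| ≤ |y i| + |h| := abs_add_le _ _
        _ < s := by linarith
    · have : (y + h • ee t) i = y i := by simp [hi]
      rw [this]; exact h5.trans_le hs

open Vale.Agent.P088.R2.H856.DM.Loc Vale.Agent.P088.R2.H850.DM in
/-- Uniform bound of the difference quotients of the gradient. -/
theorem dq_bound [NeZero n] {ι : Type} [Fintype ι] {r r' : ℝ} {a : Fin n → Fin n → En n → ℝ}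
    {W : ι → En n → ℝ} (ha : Ell r a) (hW : Cl r a W) (h0 : 0 < r') (h1 : r' < r) {t : Fin n}
    (ht : t ≠ 0) :
    ∃ K : ℝ≥0∞, K ≠ ⊤ ∧ ∃ δ > 0, r' + δ ≤ r ∧ ∀ h, 0 < h → h < δ → ∀ i α,
      ∫⁻ y in Uh r', ENNReal.ofReal (((dd i (W α) (y + h • ee t) - dd i (W α) y) / h) ^ 2) ≤ K := by
  classical
  obtain ⟨r2, hr2⟩ : ∃ r2, r2 = (r' + r) / 2 := ⟨_, rfl⟩
  obtain ⟨r3, hr3⟩ : ∃ r3, r3 = (r2 + r) / 2 := ⟨_, rfl⟩
  have h12 : r' < r2 := by rw [hr2]; linarith
  have h23 : r2 < r3 := by rw [hr3, hr2]; linarith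
  have h3 : r3 < r := by rw [hr3, hr2]; linarith
  have h20 : 0 < r2 := h0.trans h12
  obtain ⟨K, hK0, hK⟩ := sys_energy ha hW h23 h3 ht
  obtain ⟨M, hM0, hM⟩ := cutoff (n := n) (r₁ := r') (r₂ := (r' + r2) / 2) (r := r2) h0
    (by linarith) (by linarith)
  -- finite quantities
  have fu : ∀ k, ∫⁻ y in Uh r, ENNReal.ofReal (uu W k y ^ 2) ≠ ⊤ := by
    intro k
    rcases k with ⟨i, β⟩ | β
    · exact lint_sq_ne_top (hW.d2 i β)
    · exact lint_sq_ne_top (hW.l2 β)
  obtain ⟨K1, hK1, hK1t⟩ : ∃ K1 : ℝ≥0∞, K1 = ENNReal.ofReal (1 + n * M) *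
      (∑ α, ∫⁻ y in Uh r, ENNReal.ofReal (dd t (W α) y ^ 2)) +
      (∑ k, ∫⁻ y in Uh r, ENNReal.ofReal (uu W k y ^ 2)) + volume (Uh (n := n) r) ∧ K1 ≠ ⊤ := by
    refine ⟨_, rfl, ?_⟩
    refine ENNReal.add_ne_top.2 ⟨ENNReal.add_ne_top.2 ⟨ENNReal.mul_ne_top ENNReal.ofReal_ne_top ?_,
      ?_⟩, vol_U_ne_top r⟩
    · exact ENNReal.sum_ne_top.2 fun α _ => lint_sq_ne_top (hW.d2 t α)
    · exact ENNReal.sum_ne_top.2 fun k _ => fu k
  refine ⟨ENNReal.ofReal K * (K1 + ENNReal.ofReal (8 * n * M) * (Fintype.card ι : ℝ≥0∞)) + 1, ?_,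
    r3 - r2, by linarith, by linarith, ?_⟩
  · refine ENNReal.add_ne_top.2 ⟨ENNReal.mul_ne_top ENNReal.ofReal_ne_top
      (ENNReal.add_ne_top.2 ⟨hK1t, ENNReal.mul_ne_top ENNReal.ofReal_ne_top (by simp)⟩), by simp⟩
  intro h hh0 hh i₀ α₀
  have hh1 : h ≠ 0 := hh0.ne'
  have hO2 := isOpen_U (n := n) r2
  have hO' := isOpen_U (n := n) r'
  have hO3 := isOpen_U (n := n) r3
  have hOr := isOpen_U (n := n) r
  have s12 : Uh (n := n) r' ⊆ Uh r2 := U_mono h12.le
  have s23 : Uh (n := n) r2 ⊆ Uh r3 := U_mono h23.le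
  have s3 : Uh (n := n) r3 ⊆ Uh r := U_mono h3.le
  have hsh : ∀ y ∈ Uh (n := n) r2, y + h • ee t ∈ Uh r3 := fun y hy =>
    sh_mem ht (by rw [abs_of_pos hh0]; exact hh.le) hy
  have sm1 : ∀ {f : En n → ℝ}, ContDiffOn ℝ ∞ f (Uh r) → ContDiffOn ℝ 1 f (Uh r) := fun hf =>
    hf.of_le (by simp)
  have smd : ∀ j α, ContDiffOn ℝ ∞ (dd j (W α)) (Uh r) := fun j α =>
    ((hW.sm α).fderiv_of_isOpen hOr (by simp)).clm_apply contDiffOn_const
  have smu : ∀ k, ContDiffOn ℝ ∞ (uu W k) (Uh r) := by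
    intro k
    rcases k with ⟨i, β⟩ | β
    · exact smd i β
    · exact hW.sm β
  have hw1 : ∀ α, ContDiffOn ℝ 1 (DQ t h (W α)) (Uh r2) := fun α =>
    DQ_smooth (sm1 (hW.sm α)) (s23.trans s3) fun y hy => s3 (hsh y hy)
  have ddw : ∀ i α, ∀ y ∈ Uh (n := n) r2, dd i (DQ t h (W α)) y = DQ t h (dd i (W α)) y :=
    fun i α y hy => dd_DQ hOr (sm1 (hW.sm α)) (s3 (s23 hy)) (s3 (hsh y hy))
  have cdw : ∀ i α, ContinuousOn (dd i (DQ t h (W α))) (Uh r2) := fun i α =>
    dd_cont hO2 (hw1 α) i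
  -- the energy density
  obtain ⟨S, hS⟩ : ∃ S : En n → ℝ, S = fun y => ∑ α, ∑ i, dd i (DQ t h (W α)) y ^ 2 := ⟨_, rfl⟩
  have hSd : ∀ i α y, dd i (DQ t h (W α)) y ^ 2 ≤ S y := by
    intro i α y
    rw [hS]
    refine le_trans ?_ (Finset.single_le_sum (f := fun β => ∑ i, dd i (DQ t h (W β)) y ^ 2)
      (fun β _ => Finset.sum_nonneg fun i _ => sq_nonneg _) (Finset.mem_univ α))
    exact Finset.single_le_sum (f := fun i => dd i (DQ t h (W α)) y ^ 2)
      (fun i _ => sq_nonneg _) (Finset.mem_univ i)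
  have hSfin : ∫⁻ y in Uh r2, ENNReal.ofReal (S y) ≠ ⊤ := by
    rw [hS, lint_sum Finset.univ hO2.measurableSet
      (f := fun α y => ∑ i, dd i (DQ t h (W α)) y ^ 2)
      (fun α => continuousOn_finsetSum _ fun i _ => (cdw i α).pow 2)
      (fun α y _ => Finset.sum_nonneg fun i _ => sq_nonneg _)]
    refine ENNReal.sum_ne_top.2 fun α _ => ?_
    rw [lint_sum Finset.univ hO2.measurableSet (f := fun i y => dd i (DQ t h (W α)) y ^ 2)
      (fun i => (cdw i α).pow 2) (fun i y _ => sq_nonneg _)]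
    refine ENNReal.sum_ne_top.2 fun i _ => ?_
    have e1 : ∫⁻ y in Uh r2, ENNReal.ofReal (dd i (DQ t h (W α)) y ^ 2) =
        ∫⁻ y in Uh r2, ENNReal.ofReal (DQ t h (dd i (W α)) y ^ 2) :=
      setLIntegral_congr_fun hO2.measurableSet fun y hy => by rw [ddw i α y hy]
    rw [e1]
    refine ne_top_of_le_ne_top ?_ (DQ_crude hh1 hO2.measurableSet hOr.measurableSet
      (s23.trans s3) (fun y hy => s3 (hsh y hy)) (smd i α).continuousOn)
    exact ENNReal.mul_ne_top ENNReal.ofReal_ne_top (lint_sq_ne_top (hW.d2 i α))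
  obtain ⟨ε, hε0, hεr, hε⟩ := thin h20 hSfin h0
  obtain ⟨φ, hφc, hφ01, hφ1, hφs, hdφ, hdφs⟩ := hM ε hε0
  have main := hK h hh0 hh φ hφc
  have hTm : MeasurableSet (Uh (n := n) r2 ∩ {y | y 0 < 2 * ε}) :=
    hO2.measurableSet.inter (isOpen_lt (by fun_prop) continuous_const).measurableSet
  -- the left hand side
  have left : ∫⁻ y in Uh r', ENNReal.ofReal (S y) ≤
      (∫⁻ y, ENNReal.ofReal (φ y ^ 2 * S y)) + 1 := by
    have hsplit : Uh (n := n) r' ⊆ (Uh r' ∩ {y | 2 * ε ≤ y 0}) ∪ (Uh r2 ∩ {y | y 0 < 2 * ε}) := by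
      intro y hy
      rcases le_or_gt (2 * ε) (y 0) with h | h
      · exact Or.inl ⟨hy, h⟩
      · exact Or.inr ⟨s12 hy, h⟩
    calc ∫⁻ y in Uh r', ENNReal.ofReal (S y)
        ≤ ∫⁻ y in (Uh r' ∩ {y | 2 * ε ≤ y 0}) ∪ (Uh r2 ∩ {y | y 0 < 2 * ε}),
          ENNReal.ofReal (S y) := lintegral_mono_set hsplit
      _ ≤ (∫⁻ y in Uh r' ∩ {y | 2 * ε ≤ y 0}, ENNReal.ofReal (S y)) +
          (∫⁻ y in Uh r2 ∩ {y | y 0 < 2 * ε}, ENNReal.ofReal (S y)) :=
          lintegral_union_le _ _ _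
      _ ≤ _ := by
          refine add_le_add ?_ hε
          have hAm : MeasurableSet (Uh (n := n) r' ∩ {y | 2 * ε ≤ y 0}) :=
            hO'.measurableSet.inter (isClosed_le continuous_const (by fun_prop)).measurableSet
          calc ∫⁻ y in Uh r' ∩ {y | 2 * ε ≤ y 0}, ENNReal.ofReal (S y)
              = ∫⁻ y in Uh r' ∩ {y | 2 * ε ≤ y 0}, ENNReal.ofReal (φ y ^ 2 * S y) :=
                setLIntegral_congr_fun hAm fun y hy => by
                  rw [hφ1 y hy.1 hy.2]; simp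
            _ ≤ _ := setLIntegral_le_lintegral _ _
  -- the right hand side
  have hw2 : ∀ α, ∫⁻ y in Uh r2, ENNReal.ofReal (DQ t h (W α) y ^ 2) ≤
      ∫⁻ y in Uh r, ENNReal.ofReal (dd t (W α) y ^ 2) := by
    intro α
    refine dq_le hOr (sm1 (hW.sm α)) hO2.measurableSet hh1 fun y hy τ hτ => s3 ?_
    refine sh_mem ht ?_ hy
    rw [abs_of_nonneg (mul_nonneg hτ.1 hh0.le)]
    calc τ * h ≤ 1 * h := by gcongr; exact hτ.2
      _ ≤ r3 - r2 := by linarith
  have hw3 : ∀ α, ∫⁻ y in Uh r2 ∩ {y | y 0 < 2 * ε}, ENNReal.ofReal (DQ t h (W α) y ^ 2) ≤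
      ENNReal.ofReal (2 * (2 * ε) ^ 2) := by
    intro α
    obtain ⟨C, hC⟩ := hW.tr
    have htr : Tr r2 (DQ t h (W α)) := by
      refine ⟨(4 / h ^ 2).toNNReal * C, fun e he => ?_⟩
      have hm1 : MeasurableSet (Uo n r2 ∩ {y | y 0 < e}) :=
        hO2.measurableSet.inter (isOpen_lt (by fun_prop) continuous_const).measurableSet
      have hm2 : MeasurableSet (Uh (n := n) r ∩ {y | y 0 < e}) :=
        hOr.measurableSet.inter (isOpen_lt (by fun_prop) continuous_const).measurableSet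
      refine (DQ_crude hh1 hm1 hm2 (fun y hy => ⟨s3 (s23 hy.1), hy.2⟩)
        (fun y hy => ⟨s3 (hsh y hy.1), ?_⟩)
        ((hW.sm α).continuousOn.mono inter_subset_left)).trans ?_
      · have : (y + h • ee t) 0 = y 0 := by simp [ht.symm]
        change (y + h • ee t) 0 < e
        rw [this]; exact hy.2
      · rw [ENNReal.coe_mul, mul_assoc]
        refine mul_le_mul' (le_of_eq rfl) (hC α e he)
    have h5 := hardy_tr h20 (hw1 α) htr (e := 2 * ε) (by positivity)
    refine h5.trans ?_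
    calc ENNReal.ofReal (2 * (2 * ε) ^ 2) * (∫⁻ y in Uo n r2 ∩ {y | y 0 < 2 * ε},
          ENNReal.ofReal (fderiv ℝ (DQ t h (W α)) y (EuclideanSpace.single 0 1) ^ 2))
        ≤ ENNReal.ofReal (2 * (2 * ε) ^ 2) * 1 := by
          refine mul_le_mul' le_rfl (le_trans ?_ hε)
          exact lintegral_mono fun y => ENNReal.ofReal_le_ofReal (hSd 0 α y)
      _ = _ := mul_one _
  have right : ∫⁻ y, ENNReal.ofReal ((φ y ^ 2 + ∑ i, dd i φ y ^ 2) *
      ∑ α, DQ t h (W α) y ^ 2 + φ y ^ 2 * (∑ k, uu W k (y + h • ee t) ^ 2 + 0 + 1)) ≤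
      K1 + ENNReal.ofReal (8 * n * M) * (Fintype.card ι : ℝ≥0∞) := by
    have hpt : ∀ y, ENNReal.ofReal ((φ y ^ 2 + ∑ i, dd i φ y ^ 2) *
        ∑ α, DQ t h (W α) y ^ 2 + φ y ^ 2 * (∑ k, uu W k (y + h • ee t) ^ 2 + 0 + 1)) ≤
        (Uh r2).indicator (fun y => ENNReal.ofReal (1 + n * M) *
          ENNReal.ofReal (∑ α, DQ t h (W α) y ^ 2) +
          ENNReal.ofReal (∑ k, uu W k (y + h • ee t) ^ 2) + 1) y +
        (Uh r2 ∩ {y | y 0 < 2 * ε}).indicator (fun y => ENNReal.ofReal (n * M / ε ^ 2) *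
          ENNReal.ofReal (∑ α, DQ t h (W α) y ^ 2)) y := by
      intro y
      have b1 : 0 ≤ ∑ α, DQ t h (W α) y ^ 2 := Finset.sum_nonneg fun _ _ => sq_nonneg _
      have b2 : 0 ≤ ∑ k, uu W k (y + h • ee t) ^ 2 := Finset.sum_nonneg fun _ _ => sq_nonneg _
      have b3 : φ y ^ 2 ≤ 1 := by
        have := hφ01 y
        nlinarith
      by_cases hy : y ∈ Uh r2
      · rw [indicator_of_mem hy]
        by_cases hy2 : y 0 < 2 * ε
        · rw [indicator_of_mem (show y ∈ Uh r2 ∩ {y | y 0 < 2 * ε} from ⟨hy, hy2⟩),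
            ← ENNReal.ofReal_mul (by positivity), ← ENNReal.ofReal_mul (by positivity),
            show (1 : ℝ≥0∞) = ENNReal.ofReal 1 by simp,
            ← ENNReal.ofReal_add (by positivity) b2, ← ENNReal.ofReal_add (by positivity) zero_le_one,
            ← ENNReal.ofReal_add (by positivity) (by positivity)]
          refine ENNReal.ofReal_le_ofReal ?_
          have b4 : ∑ i, dd i φ y ^ 2 ≤ n * (M + M / ε ^ 2) := by
            calc ∑ i, dd i φ y ^ 2 ≤ ∑ _i : Fin n, (M + M / ε ^ 2) :=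
                  Finset.sum_le_sum fun i _ => by
                    have := hdφ i y
                    rwa [if_pos hy2] at this
              _ = _ := by simp [mul_add]
          have b5 := mul_le_mul_of_nonneg_right b4 b1
          have b6 := mul_le_mul_of_nonneg_right b3 b1
          have b7 := mul_le_mul_of_nonneg_right b3 (show 0 ≤
            ∑ k, uu W k (y + h • ee t) ^ 2 + 1 by positivity)
          have b8 : n * M / ε ^ 2 * ∑ α, DQ t h (W α) y ^ 2 =
            n * (M / ε ^ 2) * ∑ α, DQ t h (W α) y ^ 2 := by ring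
          rw [b8]
          nlinarith
        · refine le_trans ?_ le_self_add
          rw [← ENNReal.ofReal_mul (by positivity), show (1 : ℝ≥0∞) = ENNReal.ofReal 1 by simp,
            ← ENNReal.ofReal_add (by positivity) b2, ← ENNReal.ofReal_add (by positivity) zero_le_one]
          refine ENNReal.ofReal_le_ofReal ?_
          have b4 : ∑ i, dd i φ y ^ 2 ≤ n * M := by
            calc ∑ i, dd i φ y ^ 2 ≤ ∑ _i : Fin n, M :=
                  Finset.sum_le_sum fun i _ => by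
                    have := hdφ i y
                    rwa [if_neg hy2, add_zero] at this
              _ = _ := by simp
          have b5 := mul_le_mul_of_nonneg_right b4 b1
          have b6 := mul_le_mul_of_nonneg_right b3 b1
          have b7 := mul_le_mul_of_nonneg_right b3 (show 0 ≤
            ∑ k, uu W k (y + h • ee t) ^ 2 + 1 by positivity)
          nlinarith
      · simp [hφc.zero hy, dd_eq_zero hφc _ hy]
    refine (lintegral_mono hpt).trans ?_
    have cS1 : ContinuousOn (fun y => ∑ α, DQ t h (W α) y ^ 2) (Uh r2) :=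
      continuousOn_finsetSum _ fun α _ => (hw1 α).continuousOn.pow 2
    have cu : ∀ k, ContinuousOn (fun y => uu W k (y + h • ee t) ^ 2) (Uh r2) := fun k =>
      ContinuousOn.pow ((smu k).continuousOn.comp (by fun_prop) fun y hy => s3 (hsh y hy)) 2
    have cS1' : ContinuousOn (fun y => ∑ α, DQ t h (W α) y ^ 2) (Uh r2 ∩ {y | y 0 < 2 * ε}) :=
      cS1.mono inter_subset_left
    have mG : AEMeasurable ((Uh r2 ∩ {y | y 0 < 2 * ε}).indicator fun y =>
        ENNReal.ofReal (n * M / ε ^ 2) * ENNReal.ofReal (∑ α, DQ t h (W α) y ^ 2)) volume :=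
      (aemeasurable_indicator_iff hTm).2 ((cS1'.aemeasurable hTm).ennreal_ofReal.const_mul _)
    rw [lintegral_add_right' _ mG, lintegral_indicator hO2.measurableSet, lintegral_indicator hTm]
    refine add_le_add ?_ ?_
    · have c2 : ContinuousOn (fun y => ∑ k, uu W k (y + h • ee t) ^ 2) (Uh r2) :=
        continuousOn_finsetSum _ fun k _ => cu k
      rw [lintegral_add_right' _ aemeasurable_const,
        lintegral_add_right' _ (c2.aemeasurable hO2.measurableSet).ennreal_ofReal,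
        lintegral_const_mul' _ _ ENNReal.ofReal_ne_top,
        lint_sum Finset.univ hO2.measurableSet (f := fun α y => DQ t h (W α) y ^ 2)
          (fun α => (hw1 α).continuousOn.pow 2) (fun _ _ _ => sq_nonneg _),
        lint_sum Finset.univ hO2.measurableSet (f := fun k y => uu W k (y + h • ee t) ^ 2)
          cu (fun _ _ _ => sq_nonneg _), hK1]
      refine add_le_add (add_le_add (mul_le_mul' le_rfl (Finset.sum_le_sum fun α _ => hw2 α)) ?_) ?_
      · refine Finset.sum_le_sum fun k _ => ?_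
        exact shift_le hO2.measurableSet hOr.measurableSet (fun y hy => s3 (hsh y hy))
          fun y => ENNReal.ofReal (uu W k y ^ 2)
      · rw [lintegral_const, one_mul, Measure.restrict_apply_univ]
        exact measure_mono (s23.trans s3)
    · rw [lintegral_const_mul' _ _ ENNReal.ofReal_ne_top,
        lint_sum Finset.univ hTm (f := fun α y => DQ t h (W α) y ^ 2)
          (fun α => ((hw1 α).continuousOn.mono inter_subset_left).pow 2) (fun _ _ _ => sq_nonneg _)]
      calc ENNReal.ofReal (n * M / ε ^ 2) *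
            ∑ α, ∫⁻ y in Uh r2 ∩ {y | y 0 < 2 * ε}, ENNReal.ofReal (DQ t h (W α) y ^ 2)
          ≤ ENNReal.ofReal (n * M / ε ^ 2) * ∑ _α : ι, ENNReal.ofReal (2 * (2 * ε) ^ 2) :=
            mul_le_mul' le_rfl (Finset.sum_le_sum fun α _ => hw3 α)
        _ = ENNReal.ofReal (8 * n * M) * (Fintype.card ι : ℝ≥0∞) := by
            rw [Finset.sum_const, Finset.card_univ, nsmul_eq_mul, mul_left_comm, mul_comm,
              ← ENNReal.ofReal_mul (by positivity)]
            congr 2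
            field_simp
            ring
  calc ∫⁻ y in Uh r', ENNReal.ofReal
        (((dd i₀ (W α₀) (y + h • ee t) - dd i₀ (W α₀) y) / h) ^ 2)
      ≤ ∫⁻ y in Uh r', ENNReal.ofReal (S y) := by
        refine setLIntegral_mono' hO'.measurableSet fun y hy => ENNReal.ofReal_le_ofReal ?_
        have := hSd i₀ α₀ y
        rw [ddw i₀ α₀ y (s12 hy)] at this
        exact this
    _ ≤ (∫⁻ y, ENNReal.ofReal (φ y ^ 2 * S y)) + 1 := left
    _ ≤ _ := by
        refine add_le_add ?_ le_rfl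
        rw [hS]
        exact main.trans (mul_le_mul' le_rfl right)

end Vale.Agent.P088.DC
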