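import Vale.Agent.P088.R2.H380.DM.Dq
import Vale.Agent.P088.R2.H558.DM.CfB

/-!
# P088, Dirichlet problem: the Caccioppoli estimate for the difference quotients
-/

open MeasureTheory Set
open scoped ContDiff ENNReal NNReal

noncomputable section

namespace Vale.Agent.P088.DC

variable {n : ℕ}

theorem unif {J : Type*} [Finite J] {P : J → ℝ → Prop}
    (mono : ∀ j M M', M ≤ M' → P j M → P j M') (h : ∀ j, ∃ M, P j M) :
    ∃ M, 0 ≤ M ∧ ∀ j, P j M := by
  choose M hM using h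
  obtain ⟨B, hB⟩ := (Set.finite_range M).bddAbove
  exact ⟨max B 0, le_max_right _ _,
    fun j => mono j _ _ ((hB ⟨j, rfl⟩).trans (le_max_left _ _)) (hM j)⟩

theorem csM {J : Type*} [Fintype J] {c x : J → ℝ} {M : ℝ} (hc : ∀ j, |c j| ≤ M) :
    (∑ j, c j * x j) ^ 2 ≤ (Fintype.card J * M ^ 2) * ∑ j, x j ^ 2 := by
  refine (Finset.sum_mul_sq_le_sq_mul_sq Finset.univ c x).trans ?_
  have h1 : ∑ j, c j ^ 2 ≤ Fintype.card J * M ^ 2 := by
    calc ∑ j, c j ^ 2 ≤ ∑ _j : J, M ^ 2 := Finset.sum_le_sum fun j _ => by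
          rw [← sq_abs (c j)]; exact pow_le_pow_left₀ (abs_nonneg _) (hc j) 2
      _ = _ := by simp
  gcongr

/-- The Caccioppoli estimate for the difference quotients. -/
theorem sys_energy [NeZero n] {ι : Type} [Fintype ι] {r r2 r3 : ℝ}
    {a : Fin n → Fin n → En n → ℝ} {W : ι → En n → ℝ} (ha : Ell r a) (hW : Cl r a W)
    (h23 : r2 < r3) (h3 : r3 < r) {t : Fin n} (ht : t ≠ 0) :
    ∃ K : ℝ, 0 ≤ K ∧ ∀ h, 0 < h → h < r3 - r2 → ∀ φ, Cut (Uh r2) φ →
      ∫⁻ y, ENNReal.ofReal (φ y ^ 2 * ∑ α, ∑ i, dd i (DQ t h (W α)) y ^ 2) ≤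
        ENNReal.ofReal K * ∫⁻ y, ENNReal.ofReal ((φ y ^ 2 + ∑ i, dd i φ y ^ 2) *
          ∑ α, DQ t h (W α) y ^ 2 + φ y ^ 2 * (∑ k, uu W k (y + h • ee t) ^ 2 + 0 + 1)) := by
  classical
  obtain ⟨c, F, hc, hF, hdiv⟩ := div_form ha hW
  obtain ⟨lam, hl, hpos⟩ := ha.pos
  have up : ∀ {f : En n → ℝ} {M M' : ℝ}, M ≤ M' → (∀ y ∈ Uh (n := n) r3, |f y| ≤ M) →
      ∀ y ∈ Uh (n := n) r3, |f y| ≤ M' := fun hM h y hy => (h y hy).trans hM
  obtain ⟨M1, hM10, hM1⟩ := unif (J := Fin n × Fin n)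
    (P := fun p M => ∀ y ∈ Uh (n := n) r3, |a p.1 p.2 y| ≤ M) (fun _ _ _ hM h => up hM h)
    (fun p => by
      obtain ⟨M, _, hM⟩ := (ha.cf p.1 p.2).bdd h3
      exact ⟨M, hM⟩)
  obtain ⟨M2, hM20, hM2⟩ := unif (J := Fin n × Fin n)
    (P := fun p M => ∀ (y : En n) (h : ℝ), h ≠ 0 → y ∈ Uh (n := n) r3 →
      y + h • ee t ∈ Uh (n := n) r3 → |DQ t h (a p.1 p.2) y| ≤ M)
    (fun _ _ _ hM H y h hh hy hy' => (H y h hh hy hy').trans hM)
    (fun p => by
      obtain ⟨M, _, hM⟩ := (ha.cf p.1 p.2).dq h3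
      exact ⟨M, fun y h hh hy hy' => hM y h t hh hy hy'⟩)
  obtain ⟨M3, hM30, hM3⟩ := unif (J := ι × ((Fin n × ι) ⊕ ι))
    (P := fun p M => ∀ y ∈ Uh (n := n) r3, |c p.1 p.2 y| ≤ M) (fun _ _ _ hM h => up hM h)
    (fun p => by
      obtain ⟨M, _, hM⟩ := (hc p.1 p.2).bdd h3
      exact ⟨M, hM⟩)
  obtain ⟨M4, hM40, hM4⟩ := unif (J := ι × ((Fin n × ι) ⊕ ι))
    (P := fun p M => ∀ (y : En n) (h : ℝ), h ≠ 0 → y ∈ Uh (n := n) r3 →
      y + h • ee t ∈ Uh (n := n) r3 → |DQ t h (c p.1 p.2) y| ≤ M)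
    (fun _ _ _ hM H y h hh hy hy' => (H y h hh hy hy').trans hM)
    (fun p => by
      obtain ⟨M, _, hM⟩ := (hc p.1 p.2).dq h3
      exact ⟨M, fun y h hh hy hy' => hM y h t hh hy hy'⟩)
  obtain ⟨M5, hM50, hM5⟩ := unif (J := ι)
    (P := fun p M => ∀ (y : En n) (h : ℝ), h ≠ 0 → y ∈ Uh (n := n) r3 →
      y + h • ee t ∈ Uh (n := n) r3 → |DQ t h (F p) y| ≤ M)
    (fun _ _ _ hM H y h hh hy hy' => (H y h hh hy hy').trans hM)
    (fun p => by
      obtain ⟨M, _, hM⟩ := (hF p).dq h3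
      exact ⟨M, fun y h hh hy hy' => hM y h t hh hy hy'⟩)
  obtain ⟨M, hM⟩ : ∃ M, M = M1 + M2 + M3 + M4 + M5 := ⟨_, rfl⟩
  have hM0 : 0 ≤ M := by rw [hM]; positivity
  obtain ⟨Nk, hNk⟩ : ∃ Nk : ℝ, Nk = (Fintype.card ((Fin n × ι) ⊕ ι) : ℝ) := ⟨_, rfl⟩
  have hNk0 : 0 ≤ Nk := by rw [hNk]; positivity
  obtain ⟨L, hL⟩ : ∃ L : ℝ, L = 3 * M ^ 2 * (Nk + n + 1) := ⟨_, rfl⟩
  have hL0 : 0 ≤ L := by rw [hL]; positivity
  have hMM : 0 ≤ M ^ 2 := sq_nonneg _
  have hLn : 2 * (n * M ^ 2) ≤ L := by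
    rw [hL]; nlinarith [mul_nonneg hMM hNk0, mul_nonneg hMM (Nat.cast_nonneg (α := ℝ) n)]
  have hLk : 3 * (Nk * M ^ 2) ≤ L := by
    rw [hL]; nlinarith [mul_nonneg hMM hNk0, mul_nonneg hMM (Nat.cast_nonneg (α := ℝ) n)]
  have hL1 : 3 * M ^ 2 ≤ L := by
    rw [hL]; nlinarith [mul_nonneg hMM hNk0, mul_nonneg hMM (Nat.cast_nonneg (α := ℝ) n)]
  obtain ⟨K, hK0, hK⟩ := energy ι n hl hL0
  refine ⟨K, hK0, ?_⟩
  intro h hh0 hh φ hφ
  have hh1 : h ≠ 0 := hh0.ne'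
  have hO2 := Vale.Agent.P088.R2.H856.DM.Loc.isOpen_U (n := n) r2
  have hOr := Vale.Agent.P088.R2.H856.DM.Loc.isOpen_U (n := n) r
  have s23 : Uh (n := n) r2 ⊆ Uh r3 := Uh_mono h23.le
  have s3 : Uh (n := n) r3 ⊆ Uh r := Uh_mono h3.le
  have hsh : ∀ y ∈ Uh (n := n) r2, y + h • ee t ∈ Uh r3 := by
    intro y hy
    refine ⟨?_, fun i => ?_⟩
    · have : (y + h • ee t) 0 = y 0 := by simp [ht.symm]
      rw [this]; exact hy.1
    · have h5 := hy.2 i
      by_cases hi : i = t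
      · subst hi
        have : (y + h • ee i) i = y i + h := by simp
        rw [this]
        calc |y i + h| ≤ |y i| + |h| := abs_add_le _ _
          _ < r3 := by rw [abs_of_pos hh0]; linarith
      · have : (y + h • ee t) i = y i := by simp [hi]
        rw [this]; exact h5.trans h23
  have smV : ∀ i α, ContDiffOn ℝ ∞ (fun y => ∑ j, a i j y * dd j (W α) y) (Uh r) := by
    intro i α
    refine ContDiffOn.sum fun j _ => ((ha.cf i j).smoothOn).mul ?_
    exact ((hW.sm α).fderiv_of_isOpen hOr (by simp)).clm_apply contDiffOn_const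
  have smd : ∀ j α, ContDiffOn ℝ ∞ (dd j (W α)) (Uh r) := fun j α =>
    ((hW.sm α).fderiv_of_isOpen hOr (by simp)).clm_apply contDiffOn_const
  have smu : ∀ k, ContDiffOn ℝ ∞ (uu W k) (Uh r) := by
    intro k
    rcases k with ⟨i, β⟩ | β
    · exact smd i β
    · exact hW.sm β
  have sm1 : ∀ {f : En n → ℝ}, ContDiffOn ℝ ∞ f (Uh r) → ContDiffOn ℝ 1 f (Uh r) := fun hf =>
    hf.of_le (by simp)
  have hw1 : ∀ α, ContDiffOn ℝ 1 (DQ t h (W α)) (Uh r2) := fun α =>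
    DQ_smooth (sm1 (hW.sm α)) (s23.trans s3) fun y hy => s3 (hsh y hy)
  have ddw : ∀ i α, ∀ y ∈ Uh (n := n) r2, dd i (DQ t h (W α)) y = DQ t h (dd i (W α)) y :=
    fun i α y hy => dd_DQ hOr (sm1 (hW.sm α)) (s3 (s23 hy)) (s3 (hsh y hy))
  have hDQu : ∀ y ∈ Uh (n := n) r2, ∑ k, DQ t h (uu W k) y ^ 2 =
      ∑ α, ∑ i, dd i (DQ t h (W α)) y ^ 2 + ∑ α, DQ t h (W α) y ^ 2 := by
    intro y hy
    rw [Fintype.sum_sum_type, Fintype.sum_prod_type, Finset.sum_comm]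
    refine congrArg₂ _ ?_ rfl
    exact Finset.sum_congr rfl fun α _ => Finset.sum_congr rfl fun i _ => by
      rw [ddw i α y hy]; rfl
  have hQle : ∀ (y : En n) (α : ι), ∑ j, dd j (W α) (y + h • ee t) ^ 2 ≤
      ∑ k, uu W k (y + h • ee t) ^ 2 := by
    intro y α
    rw [Fintype.sum_sum_type, Fintype.sum_prod_type, Finset.sum_comm]
    have h6 : ∑ j, dd j (W α) (y + h • ee t) ^ 2 ≤
        ∑ β, ∑ i, uu W (Sum.inl (i, β)) (y + h • ee t) ^ 2 :=
      Finset.single_le_sum (f := fun β => ∑ i, uu W (Sum.inl (i, β)) (y + h • ee t) ^ 2)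
        (fun β _ => Finset.sum_nonneg fun i _ => sq_nonneg _) (Finset.mem_univ α)
    have h7 : 0 ≤ ∑ β, uu W (Sum.inr β) (y + h • ee t) ^ 2 :=
      Finset.sum_nonneg fun i _ => sq_nonneg _
    linarith
  refine hK (Uh r2) hO2 φ hφ (fun α => DQ t h (W α))
    (fun i α => DQ t h (fun y => ∑ j, a i j y * dd j (W α) y))
    (fun i α y => ∑ j, DQ t h (a i j) y * dd j (W α) (y + h • ee t))
    (fun α => DQ t h (fun y => ∑ k, c α k y * uu W k y + F α y))
    (fun y => ∑ k, uu W k (y + h • ee t) ^ 2) (fun _ => 0) hw1 ?_ ?_ continuousOn_const ?_ ?_ ?_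
    ?_ ?_ ?_ ?_
  · intro i α
    exact DQ_smooth (sm1 (smV i α)) (s23.trans s3) fun y hy => s3 (hsh y hy)
  · refine continuousOn_finsetSum _ fun k _ => ContinuousOn.pow ?_ 2
    exact (smu k).continuousOn.comp (by fun_prop) fun y hy => s3 (hsh y hy)
  · -- divergence
    intro α y hy
    have h8 : ∀ i, dd i (DQ t h (fun y => ∑ j, a i j y * dd j (W α) y)) y =
        DQ t h (dd i (fun y => ∑ j, a i j y * dd j (W α) y)) y := fun i =>
      dd_DQ hOr (sm1 (smV i α)) (s3 (s23 hy)) (s3 (hsh y hy))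
    simp only [h8]
    simp only [DQ]
    rw [← Finset.sum_div, Finset.sum_sub_distrib, hdiv α y (s3 (s23 hy)),
      hdiv α _ (s3 (hsh y hy))]
  · intro y _
    exact Finset.sum_nonneg fun k _ => sq_nonneg _
  · intro y _
    exact le_rfl
  · -- ellipticity
    intro y hy α
    have h9 : ∀ i, DQ t h (fun y => ∑ j, a i j y * dd j (W α) y) y -
        ∑ j, DQ t h (a i j) y * dd j (W α) (y + h • ee t) =
        ∑ j, a i j y * dd j (DQ t h (W α)) y := by
      intro i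
      rw [DQ_sum, ← Finset.sum_sub_distrib]
      refine Finset.sum_congr rfl fun j _ => ?_
      rw [DQ_mul, ddw j α y hy]
      ring
    have h10 := hpos y (s3 (s23 hy)) (fun i => dd i (DQ t h (W α)) y)
    refine h10.trans (le_of_eq ?_)
    refine Finset.sum_congr rfl fun i _ => ?_
    rw [h9 i, Finset.sum_mul]
    exact Finset.sum_congr rfl fun j _ => by ring
  · intro y hy i α
    have h11 := csM (c := fun j => DQ t h (a i j) y) (x := fun j => dd j (W α) (y + h • ee t))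
      (M := M) (fun j => (hM2 (i, j) y h hh1 (s23 hy) (hsh y hy)).trans (by rw [hM]; linarith))
    rw [Fintype.card_fin] at h11
    refine h11.trans ?_
    have h12 := hQle y α
    have h13 : 0 ≤ ∑ k, uu W k (y + h • ee t) ^ 2 := Finset.sum_nonneg fun k _ => sq_nonneg _
    calc (n : ℝ) * M ^ 2 * ∑ j, dd j (W α) (y + h • ee t) ^ 2
        ≤ (n : ℝ) * M ^ 2 * ∑ k, uu W k (y + h • ee t) ^ 2 := by gcongr
      _ ≤ L * ∑ k, uu W k (y + h • ee t) ^ 2 := by
        refine mul_le_mul_of_nonneg_right ?_ h13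
        have : 0 ≤ (n : ℝ) * M ^ 2 := by positivity
        linarith
  · intro y hy i α
    have h11 := csM (c := fun j => DQ t h (a i j) y) (x := fun j => dd j (W α) (y + h • ee t))
      (M := M) (fun j => (hM2 (i, j) y h hh1 (s23 hy) (hsh y hy)).trans (by rw [hM]; linarith))
    have h14 := csM (c := fun j => a i j y) (x := fun j => dd j (DQ t h (W α)) y)
      (M := M) (fun j => (hM1 (i, j) y (s23 hy)).trans (by rw [hM]; linarith))
    rw [Fintype.card_fin] at h11 h14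
    have h15 : DQ t h (fun y => ∑ j, a i j y * dd j (W α) y) y =
        ∑ j, a i j y * dd j (DQ t h (W α)) y +
          ∑ j, DQ t h (a i j) y * dd j (W α) (y + h • ee t) := by
      rw [DQ_sum, ← Finset.sum_add_distrib]
      refine Finset.sum_congr rfl fun j _ => ?_
      rw [DQ_mul, ddw j α y hy]
      ring
    have h12 := hQle y α
    have h13 : 0 ≤ ∑ k, uu W k (y + h • ee t) ^ 2 := Finset.sum_nonneg fun k _ => sq_nonneg _
    have h16 : ∑ j, dd j (DQ t h (W α)) y ^ 2 ≤ ∑ α, ∑ i, dd i (DQ t h (W α)) y ^ 2 :=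
      Finset.single_le_sum (f := fun β => ∑ i, dd i (DQ t h (W β)) y ^ 2)
        (fun β _ => Finset.sum_nonneg fun i _ => sq_nonneg _) (Finset.mem_univ α)
    have h17 : 0 ≤ ∑ α, ∑ i, dd i (DQ t h (W α)) y ^ 2 :=
      Finset.sum_nonneg fun β _ => Finset.sum_nonneg fun i _ => sq_nonneg _
    have hn0 : 0 ≤ (n : ℝ) * M ^ 2 := by positivity
    have q1 := mul_le_mul_of_nonneg_left h16 hn0
    have q2 := mul_le_mul_of_nonneg_left h12 hn0
    have q3 := mul_le_mul_of_nonneg_right hLn (add_nonneg h17 h13)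
    rw [h15]
    nlinarith [sq_nonneg (∑ j, a i j y * dd j (DQ t h (W α)) y -
      ∑ j, DQ t h (a i j) y * dd j (W α) (y + h • ee t))]
  · intro y hy α
    have e1 : DQ t h (fun y => ∑ k, c α k y * uu W k y + F α y) y =
        ∑ k, DQ t h (c α k) y * uu W k (y + h • ee t) + ∑ k, c α k y * DQ t h (uu W k) y +
          DQ t h (F α) y := by
      rw [DQ_add, DQ_sum, ← Finset.sum_add_distrib]
      congr 1
      exact Finset.sum_congr rfl fun k _ => DQ_mul _ _ _ _ _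
    have h11 := csM (c := fun k => DQ t h (c α k) y) (x := fun k => uu W k (y + h • ee t))
      (M := M) (fun k => (hM4 (α, k) y h hh1 (s23 hy) (hsh y hy)).trans (by rw [hM]; linarith))
    have h14 := csM (c := fun k => c α k y) (x := fun k => DQ t h (uu W k) y)
      (M := M) (fun k => (hM3 (α, k) y (s23 hy)).trans (by rw [hM]; linarith))
    have h18 : DQ t h (F α) y ^ 2 ≤ M ^ 2 := by
      rw [← sq_abs (DQ t h (F α) y)]
      exact pow_le_pow_left₀ (abs_nonneg _)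
        ((hM5 α y h hh1 (s23 hy) (hsh y hy)).trans (by rw [hM]; linarith)) 2
    rw [← hNk] at h11 h14
    rw [hDQu y hy] at h14
    have h13 : 0 ≤ ∑ k, uu W k (y + h • ee t) ^ 2 := Finset.sum_nonneg fun k _ => sq_nonneg _
    have h17 : 0 ≤ ∑ α, ∑ i, dd i (DQ t h (W α)) y ^ 2 :=
      Finset.sum_nonneg fun β _ => Finset.sum_nonneg fun i _ => sq_nonneg _
    have h19 : 0 ≤ ∑ α, DQ t h (W α) y ^ 2 := Finset.sum_nonneg fun k _ => sq_nonneg _
    rw [e1]
    generalize (∑ k, DQ t h (c α k) y * uu W k (y + h • ee t)) = A at *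
    generalize (∑ k, c α k y * DQ t h (uu W k) y) = B at *
    generalize DQ t h (F α) y = D at *
    generalize (∑ k, uu W k (y + h • ee t) ^ 2) = SQ at *
    generalize (∑ α, ∑ i, dd i (DQ t h (W α)) y ^ 2) = SP at *
    generalize (∑ α, DQ t h (W α) y ^ 2) = SW at *
    have q1 := mul_le_mul_of_nonneg_right hLk h13
    have q2 := mul_le_mul_of_nonneg_right hLk (add_nonneg h17 h19)
    have q4 : (A + B + D) ^ 2 ≤ 3 * (A ^ 2 + B ^ 2 + D ^ 2) := by
      nlinarith [sq_nonneg (A - B), sq_nonneg (A - D), sq_nonneg (B - D)]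
    nlinarith

end Vale.Agent.P088.DC
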