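import Vale.Agent.P088.R2.H380.DM.Defs

/-!
# P088, Dirichlet problem: integration by parts against a cut-off function
-/

open MeasureTheory Set
open scoped ContDiff ENNReal NNReal

noncomputable section

namespace Vale.Agent.P088.DC

variable {n : ℕ}

/-- A cut-off function supported in `O`. -/
structure Cut (O : Set (En n)) (φ : En n → ℝ) : Prop where
  sm : ContDiff ℝ 1 φ
  cs : HasCompactSupport φ
  ts : tsupport φ ⊆ O

theorem Cut.zero {O : Set (En n)} {φ : En n → ℝ} (h : Cut O φ) {y : En n} (hy : y ∉ O) :
    φ y = 0 := image_eq_zero_of_notMem_tsupport fun h' => hy (h.ts h')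

/-- `φ f` is integrable for `f` continuous on `O`. -/
theorem Cut.int {O : Set (En n)} (hO : IsOpen O) {φ : En n → ℝ} (h : Cut O φ) {f : En n → ℝ}
    (hf : ContinuousOn f O) : Integrable (fun y => φ y * f y) := by
  have hs : tsupport (fun y => φ y * f y) ⊆ tsupport φ := tsupport_mul_subset_left
  have hc : Continuous (fun y => φ y * f y) :=
    ContinuousOn.continuous_of_tsupport_subset (h.sm.continuous.continuousOn.mul hf) hO
      (hs.trans h.ts)
  exact hc.integrable_of_hasCompactSupport h.cs.mul_right

theorem dd_cont {O : Set (En n)} (hO : IsOpen O) {f : En n → ℝ} (hf : ContDiffOn ℝ 1 f O)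
    (i : Fin n) : ContinuousOn (dd i f) O := by
  have := hf.continuousOn_fderiv_of_isOpen hO (by norm_num)
  exact this.clm_apply continuousOn_const

/-- Integration by parts. -/
theorem Cut.ibp {O : Set (En n)} (hO : IsOpen O) {φ : En n → ℝ} (h : Cut O φ) {X w : En n → ℝ}
    (hX : ContDiffOn ℝ 1 X O) (hw : ContDiffOn ℝ 1 w O) (i : Fin n) :
    ∫ y, X y * (φ y ^ 2 * dd i w y + 2 * φ y * dd i φ y * w y) =
      -∫ y, dd i X y * (φ y ^ 2 * w y) := by
  have hs : tsupport (fun y => φ y ^ 2 * w y) ⊆ tsupport φ := by
    refine (tsupport_mul_subset_left).trans ?_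
    refine closure_mono fun y hy => ?_
    intro h0
    apply hy
    simp [h0]
  have dφ : ∀ y, DifferentiableAt ℝ φ y := fun y => (h.sm.differentiable (by norm_num)) y
  have hd : ∀ y ∈ O, HasFDerivAt (fun y => φ y ^ 2 * w y)
      ((φ y ^ 2) • fderiv ℝ w y + w y • ((2 * φ y) • fderiv ℝ φ y)) y := by
    intro y hy
    have d1 : HasFDerivAt w (fderiv ℝ w y) y :=
      ((hw.differentiableOn (by norm_num)).differentiableAt (hO.mem_nhds hy)).hasFDerivAt
    have d2 := ((dφ y).hasFDerivAt.pow 2)
    have d3 := d2.mul d1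
    refine d3.congr_fderiv ?_
    simp
  have hd0 : ∀ y ∉ O, (fun y => φ y ^ 2 * w y) =ᶠ[nhds y] fun _ => 0 := by
    intro y hy
    have : y ∉ tsupport (fun y => φ y ^ 2 * w y) := fun h' => hy (h.ts (hs h'))
    exact notMem_tsupport_iff_eventuallyEq.1 this
  have hdiff : ∀ y, DifferentiableAt ℝ (fun y => φ y ^ 2 * w y) y := by
    intro y
    by_cases hy : y ∈ O
    · exact (hd y hy).differentiableAt
    · exact (differentiableAt_const (0 : ℝ)).congr_of_eventuallyEq (hd0 y hy)
  have hder : ∀ y, fderiv ℝ (fun y => φ y ^ 2 * w y) y (ee i) =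
      φ y ^ 2 * dd i w y + 2 * φ y * dd i φ y * w y := by
    intro y
    by_cases hy : y ∈ O
    · rw [(hd y hy).fderiv]
      simp [dd]
      ring
    · rw [(hd0 y hy).fderiv_eq]
      simp [h.zero hy]
  have key := integral_mul_fderiv_eq_neg_fderiv_mul_of_integrable (μ := (volume : Measure (En n)))
    (f := X) (g := fun y => φ y ^ 2 * w y) (v := ee i) ?_ ?_ ?_ ?_ ?_
  · simp only [hder] at key
    exact key
  · have := h.int hO (f := fun y => φ y * w y * dd i X y)
      ((h.sm.continuous.continuousOn.mul hw.continuousOn).mul (dd_cont hO hX i))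
    refine this.congr (Filter.Eventually.of_forall fun y => ?_)
    simp only [dd]
    ring
  · simp only [hder]
    have := h.int hO (f := fun y => X y * (φ y * dd i w y + 2 * dd i φ y * w y))
      (hX.continuousOn.mul ((h.sm.continuous.continuousOn.mul (dd_cont hO hw i)).add
        ((continuousOn_const.mul (dd_cont hO h.sm.contDiffOn i)).mul hw.continuousOn)))
    refine this.congr (Filter.Eventually.of_forall fun y => ?_)
    simp only
    ring
  · have := h.int hO (f := fun y => φ y * w y * X y)
      ((h.sm.continuous.continuousOn.mul hw.continuousOn).mul hX.continuousOn)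
    refine this.congr (Filter.Eventually.of_forall fun y => ?_)
    simp only
    ring
  · intro y hy
    exact (hX.differentiableOn (by norm_num)).differentiableAt (hO.mem_nhds (h.ts (hs hy)))
  · intro y _
    exact hdiff y

end Vale.Agent.P088.DC
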